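import Crest.Agent.R163.Q3.D.R3.S0
import Crest.Agent.R163.Q3.D.R3.H

set_option autoImplicit false
set_option maxRecDepth 100000
set_option linter.all false
set_option Elab.async false

namespace Crest.Agent.R163.R3

theorem p0_7_41 : Ok2 par f7 ((((Box3.unit.r 0).r 1).l 1).r 0) (selB2 0 (selB2 0 (selB2 0 (selB2 0 (selB2 0 (selB2 0 C0 2596148429267312641673147897110527) 393277) 8384522) 705) 56) 4) :=
  Ok2.run hw hf7 ⟨463,25,25,13,13⟩ 58
    (.part 1 (.chk true 0) (.split 2 (.chk true 0) (.split 1 (.chk true 0) (.chk true 0))))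
    (by decide +kernel)

theorem p0_7_42 : Ok2 par f7 (((Box3.unit.r 0).r 1).l 1) (selB2 1 (selB2 0 (selB2 0 (selB2 0 (selB2 0 (selB2 0 C0 2596148429267312641673147897110527) 393277) 8384522) 705) 56) 4) :=
  Ok2.run hw hf7 ⟨324,19,19,13,13⟩ 58
    (.chk false 0)
    (by decide +kernel)

theorem p0_7_43 : Ok2 par f7 (((Box3.unit.r 0).r 1).r 1) (selB2 0 (selB2 0 (selB2 0 (selB2 0 (selB2 0 C0 2596148429267312641673147897110527) 393277) 8384522) 705) 56) :=
  Ok2.run hw hf7 ⟨400,25,25,13,13⟩ 58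
    (.part 4 (.chk false 0) (.chk true 0))
    (by decide +kernel)

theorem p0_7_44 : Ok2 par f7 ((Box3.unit.r 0).r 1) (selB2 1 (selB2 0 (selB2 0 (selB2 0 (selB2 0 C0 2596148429267312641673147897110527) 393277) 8384522) 705) 56) :=
  Ok2.run hw hf7 ⟨372,25,25,13,13⟩ 58
    (.chk true 0)
    (by decide +kernel)

theorem p0_7_45 : Ok2 par f7 (Box3.unit.r 0) (selB2 1 (selB2 0 (selB2 0 (selB2 0 C0 2596148429267312641673147897110527) 393277) 8384522) 705) :=
  Ok2.run hw hf7 ⟨337,25,25,13,13⟩ 58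
    (.chk true 0)
    (by decide +kernel)

theorem p0_7_46 : Ok2 par f7 (Box3.unit.r 0) (selB2 1 (selB2 0 (selB2 0 C0 2596148429267312641673147897110527) 393277) 8384522) :=
  Ok2.run hw hf7 ⟨282,19,19,13,13⟩ 58
    (.chk false 0)
    (by decide +kernel)

theorem p0_7_47 : Ok2 par f7 Box3.unit (selB2 1 (selB2 0 C0 2596148429267312641673147897110527) 393277) :=
  Ok2.run hw hf7 ⟨303,25,25,13,13⟩ 58
    (.chk true 0)
    (by decide +kernel)


end Crest.Agent.R163.R3
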